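import Vale.Agent.P240.R2.H986.Up

/-!
Shared definitions (helper63's row 2146). Words `List L` in the letters `L` (the lines); a space is
given by the finite set `F` of its frames (words of the same length).
-/

set_option autoImplicit false

namespace Vale.Agent.P240.R2.AS

open Finset Matrix
open Vale.Agent.P240.R2.H986 (ev ev_add ev_smul)
open scoped Classical

universe u

noncomputable section

section words

variable {L : Type u} [Fintype L]

/-- functions on words that vanish outside `F`, all sums over two adjacent letters are `0` -/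
def SOL (F : Finset (List L)) : Submodule ℚ (List L → ℚ) where
  carrier := {z | (∀ w, w ∉ F → z w = 0) ∧
    ∀ u v : List L, ∑ x : L × L, z (u ++ x.1 :: x.2 :: v) = 0}
  zero_mem' := ⟨fun _ _ => rfl, fun _ _ => by simp⟩
  add_mem' := by
    rintro a b ⟨ha, ha'⟩ ⟨hb, hb'⟩
    refine ⟨fun w hw => ?_, fun u v => ?_⟩
    · simp [ha w hw, hb w hw]
    · simp [Finset.sum_add_distrib, ha', hb']
  smul_mem' := by
    rintro c a ⟨ha, ha'⟩
    refine ⟨fun w hw => ?_, fun u v => ?_⟩
    · simp [ha w hw]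
    · simp [← Finset.mul_sum, ha']

/-- `z ↦ (g ↦ z(β(g)))` -/
def bm (L : Type u) : (List L → ℚ) →ₗ[ℚ] (List L → ℚ) where
  toFun z := fun g => ev z g [] []
  map_add' z z' := by funext g; simp [ev_add]
  map_smul' c z := by funext g; simp [ev_smul]

/-- the dimension of the space of all functions `g ↦ z(β(g))`, `z ∈ SOL F` -/
def t (F : Finset (List L)) : ℕ := Module.finrank ℚ ((SOL F).map (bm L))

/-- the set of frames of a nondegenerate space of dimension `k` -/
structure Good (F : Finset (List L)) (k : ℕ) : Prop where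
  len : ∀ w ∈ F, w.length = k
  nodup : ∀ w ∈ F, w.Nodup
  perm : ∀ w ∈ F, ∀ w', w.Perm w' → w' ∈ F
  rect : ∀ u u' g g' : List L, g.length = g'.length → u ++ g ∈ F → u ++ g' ∈ F → u' ++ g ∈ F →
    u' ++ g' ∈ F
  six : ∀ (u : List L) (a b : L), u ++ [a, b] ∈ F →
    6 ≤ (Finset.univ.filter (fun x : L × L => u ++ [x.1, x.2] ∈ F)).card

/-- the words of length `n` -/
def wds (L : Type u) [Fintype L] (n : ℕ) : Finset (List L) := (List.finite_length_eq L n).toFinset

lemma mem_wds {n : ℕ} {w : List L} : w ∈ wds L n ↔ w.length = n := by simp [wds]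

/-- the frames of the space with frame `g` (inside the space with set of frames `F`) -/
def cls (F : Finset (List L)) (g : List L) : Finset (List L) :=
  (wds L g.length).filter (fun g' => ∀ w, w ++ g' ∈ F ↔ w ++ g ∈ F)

lemma mem_cls {F : Finset (List L)} {g g' : List L} :
    g' ∈ cls F g ↔ g'.length = g.length ∧ ∀ w, w ++ g' ∈ F ↔ w ++ g ∈ F := by
  simp [cls, mem_wds]

/-- M1, the final abstract theorem (owner 775) -/
def StmtM1 : Prop :=
  ∀ n : ℕ, 2 ≤ n → ∃ k0 : ℕ, ∀ (L : Type u) [Fintype L] (F : Finset (List L)) (k : ℕ), k0 ≤ k →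
    Good F k → F.Nonempty →
    ∃ g : List L, g.length = n ∧ (∃ w, w ++ g ∈ F) ∧ (cls F g).card < 3 * 2 ^ n * t (cls F g)

end words

section geometry

variable (K : Type u) [Field K] [Fintype K] [StarRing K]

/-- the letters: orthogonal projections onto nondegenerate lines -/
def Ln (n : ℕ) : Type u :=
  {P : Matrix (Fin n) (Fin n) K // ∃ x : Fin n → K, star x ⬝ᵥ x = 1 ∧ P = vecMulVec x (star x)}

instance (n : ℕ) : Fintype (Ln K n) := by
  haveI : Finite (Ln K n) := inferInstanceAs (Finite {P : Matrix (Fin n) (Fin n) K // _})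
  exact Fintype.ofFinite _

variable {K}

/-- the sum of the projections of a word -/
def sm {n : ℕ} (w : List (Ln K n)) : Matrix (Fin n) (Fin n) K := (w.map (fun P => P.1)).sum

/-- pairwise orthogonal words -/
def Orth {n : ℕ} (w : List (Ln K n)) : Prop := w.Pairwise (fun P Q => P.1 * Q.1 = 0)

variable (K)

/-- the frames of `K ^ n` -/
def Fr (n : ℕ) : Finset (List (Ln K n)) := (wds (Ln K n) n).filter Orth

lemma mem_Fr {n : ℕ} {w : List (Ln K n)} : w ∈ Fr K n ↔ w.length = n ∧ Orth w := by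
  simp [Fr, mem_wds]

/-- M2a (owner 472) -/
def StmtM2a : Prop := ∀ (K : Type u) [Field K] [Fintype K] [StarRing K] (q : ℕ), 3 ≤ q →
  Nat.card K = q ^ 2 → (∀ x : K, star x = x ^ q) → ∀ n : ℕ, Good (Fr K n) n ∧ (Fr K n).Nonempty

/-- M2b (owner 387) -/
def StmtM2b : Prop := ∀ (K : Type u) [Field K] [Fintype K] [StarRing K] (q : ℕ), 3 ≤ q →
  Nat.card K = q ^ 2 → (∀ x : K, star x = x ^ q) → ∀ (N n : ℕ) (g : List (Ln K N)), g.length = n →
  (∃ w, w ++ g ∈ Fr K N) → (cls (Fr K N) g).card = (Fr K n).card ∧ t (cls (Fr K N) g) = t (Fr K n)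

/-- M2, the result: Theorem 1 -/
def StmtM2 : Prop := ∀ (K : Type u) [Field K] [Fintype K] [StarRing K] (q : ℕ), 3 ≤ q →
  Nat.card K = q ^ 2 → (∀ x : K, star x = x ^ q) → ∀ n : ℕ, 2 ≤ n →
  (Fr K n).card < 3 * 2 ^ n * t (Fr K n)

theorem stmtM2 (h1 : StmtM1.{u}) (h2 : StmtM2a.{u}) (h3 : StmtM2b.{u}) : StmtM2.{u} := by
  intro K _ _ _ q hq hK hs n hn
  obtain ⟨k0, h⟩ := h1 n hn
  obtain ⟨hg, hne⟩ := h2 K q hq hK hs k0
  obtain ⟨g, hgn, hw, hlt⟩ := h (Ln K k0) (Fr K k0) k0 le_rfl hg hne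
  obtain ⟨e1, e2⟩ := h3 K q hq hK hs k0 n g hgn hw
  rwa [e1, e2] at hlt

/-- unitary matrices -/
abbrev GU (n : ℕ) : Type u := ↥(Matrix.unitaryGroup (Fin n) K)

/-- `PGU_n(q)` -/
abbrev PGU (n : ℕ) : Type u := GU K n ⧸ Subgroup.center (GU K n)

variable {K}

omit [Fintype K] in
lemma eU_aux {n : ℕ} {ζ : K} {P : Matrix (Fin n) (Fin n) K}
    (h : star P = P ∧ P * P = P ∧ ζ * star ζ = 1) :
    (1 + (ζ - 1) • P) ∈ Matrix.unitaryGroup (Fin n) K := by
  obtain ⟨h1, h2, h3⟩ := h
  rw [Matrix.mem_unitaryGroup_iff, star_add, star_one, star_smul, h1, star_sub, star_one]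
  have : (1 + (ζ - 1) • P) * (1 + (star ζ - 1) • P) = 1 + (ζ * star ζ - 1) • P := by
    rw [add_mul, mul_add, mul_add, one_mul, mul_one, one_mul, smul_mul_smul_comm, h2]
    rw [add_assoc, ← add_smul, ← add_smul]
    congr 2
    ring
  rw [this, h3, sub_self, zero_smul, add_zero]

/-- the unitary matrix which is `ζ` on the image of the projection `P` and `1` on the complement -/
def eU {n : ℕ} (ζ : K) (P : Matrix (Fin n) (Fin n) K) : GU K n :=
  if h : star P = P ∧ P * P = P ∧ ζ * star ζ = 1 then ⟨1 + (ζ - 1) • P, eU_aux h⟩ else 1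

/-- its class in `PGU_n(q)`, for the space spanned by a word -/
def eW {n : ℕ} (ζ : K) (w : List (Ln K n)) : PGU K n := QuotientGroup.mk (eU ζ (sm w))

end geometry

section groups

variable {G : Type*} [Group G] {L : Type*}

/-- the subgroup generated by the `e [x]`, `x` in the word -/
def SS (e : List L → G) (w : List L) : Subgroup G := Subgroup.closure {y | ∃ x ∈ w, y = e [x]}

/-- the hypotheses of M3 on the elements `e W`, `W` = initial segment of a frame -/
structure Comb (p n : ℕ) (F : Finset (List L)) (e : List L → G) : Prop where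
  len : ∀ w ∈ F, w.length = n
  nodup : ∀ w ∈ F, w.Nodup
  perm : ∀ w ∈ F, ∀ w', w.Perm w' → w' ∈ F
  plane : ∀ (u : List L) (a b c d : L) (v w : List L), u ++ a :: b :: (v ++ w) ∈ F →
    u ++ c :: d :: (v ++ w) ∈ F → e (u ++ a :: b :: v) = e (u ++ c :: d :: v)
  comm : ∀ u v w : List L, u ++ (v ++ w) ∈ F → e u * e (u ++ v) = e (u ++ v) * e u
  pow : ∀ u v : List L, u ++ v ∈ F → e u ^ p = 1
  nil : e [] = 1
  full : ∀ w ∈ F, e w = 1
  card : ∀ w ∈ F, Nat.card (Subgroup.closure {y | ∃ u v, w = u ++ v ∧ y = e u}) = p ^ (n - 1)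
  sep : ∀ (A u v B : List L) (l : L) (g : List L), A ++ (u ++ v) ++ B ∈ F → A ++ (l :: g) ++ B ∈ F →
    u ≠ [] → v ≠ [] →
    (SS e (A ++ B) ⊔ Subgroup.zpowers (e (A ++ u)) = SS e (A ++ B) ⊔ Subgroup.zpowers (e [l]) ↔
      u = [l] ∨ v = [l])

end groups

end

end Vale.Agent.P240.R2.AS
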