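import Vale.Agent.P240.R2.AS.Defs

/-!
The groups `PΓU_n(q)` and `PSU_n(q)`.
-/

set_option autoImplicit false

namespace Vale.Agent.P240.R2.AS

open Finset Matrix
open scoped Classical

universe u v

noncomputable section

variable (K : Type u) [Field K] [StarRing K]

/-- the automorphisms of the field `K` that commute with `star` -/
def SA : Subgroup (RingAut K) where
  carrier := {σ | ∀ x : K, σ (star x) = star (σ x)}
  one_mem' := fun _ => rfl
  mul_mem' := by
    intro a b ha hb x
    have ha' : ∀ x : K, a (star x) = star (a x) := ha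
    have hb' : ∀ x : K, b (star x) = star (b x) := hb
    show a (b (star x)) = star (a (b x))
    rw [hb', ha']
  inv_mem' := by
    intro a ha x
    have ha' : ∀ x : K, a (star x) = star (a x) := ha
    apply a.injective
    show a (a.symm (star x)) = a (star (a.symm x))
    rw [ha', RingEquiv.apply_symm_apply, RingEquiv.apply_symm_apply]

variable {K}

lemma SA_star (σ : SA K) (x : K) : σ.1 (star x) = star (σ.1 x) := σ.2 x

lemma mapGU_mem {n : ℕ} (σ : SA K) (g : GU K n) : g.1.map σ.1 ∈ Matrix.unitaryGroup (Fin n) K := by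
  have h : star (g.1.map σ.1) = (star g.1).map σ.1 := by
    ext i j
    simp only [Matrix.star_apply, Matrix.map_apply]
    exact (SA_star σ _).symm
  rw [Matrix.mem_unitaryGroup_iff, h, ← Matrix.map_mul]
  rw [Matrix.mem_unitaryGroup_iff.1 g.2]
  exact Matrix.map_one _ (map_zero _) (map_one _)

/-- the action of field automorphisms on unitary matrices -/
def mapGU {n : ℕ} (σ : SA K) : GU K n →* GU K n where
  toFun g := ⟨g.1.map σ.1, mapGU_mem σ g⟩
  map_one' := Subtype.ext (Matrix.map_one _ (map_zero _) (map_one _))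
  map_mul' _ _ := Subtype.ext (Matrix.map_mul)

lemma mapGU_one {n : ℕ} (g : GU K n) : mapGU (1 : SA K) g = g := Subtype.ext (by ext i j; rfl)

lemma mapGU_mul {n : ℕ} (σ τ : SA K) (g : GU K n) : mapGU (σ * τ) g = mapGU σ (mapGU τ g) :=
  Subtype.ext (by ext i j; rfl)

/-- as an automorphism of the unitary group -/
def autGU {n : ℕ} (σ : SA K) : GU K n ≃* GU K n where
  toFun := mapGU σ
  invFun := mapGU σ⁻¹
  left_inv g := by rw [← mapGU_mul, inv_mul_cancel, mapGU_one]
  right_inv g := by rw [← mapGU_mul, mul_inv_cancel, mapGU_one]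
  map_mul' := map_mul _

lemma autGU_center {n : ℕ} (σ : SA K) :
    (Subgroup.center (GU K n)).map (autGU σ).toMonoidHom = Subgroup.center (GU K n) := by
  have := (Subgroup.characteristic_iff_map_eq (H := Subgroup.center (GU K n))).1 inferInstance
    (autGU σ)
  exact this

/-- the action on `PGU_n(q)` -/
def act (n : ℕ) : SA K →* MulAut (PGU K n) where
  toFun σ := QuotientGroup.congr _ _ (autGU σ) (autGU_center σ)
  map_one' := by
    ext x
    obtain ⟨g, rfl⟩ := QuotientGroup.mk_surjective x
    show QuotientGroup.mk (mapGU 1 g) = _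
    rw [mapGU_one]
    rfl
  map_mul' σ τ := by
    ext x
    obtain ⟨g, rfl⟩ := QuotientGroup.mk_surjective x
    show QuotientGroup.mk (mapGU (σ * τ) g) = QuotientGroup.mk (mapGU σ (mapGU τ g))
    rw [mapGU_mul]

variable (K)

/-- `PΓU_n(q)`: the group generated by `PGU_n(q)` and the field automorphisms -/
abbrev PGamU (n : ℕ) : Type u := PGU K n ⋊[act n] SA K

/-- unitary matrices of determinant `1` -/
def SU (n : ℕ) : Subgroup (GU K n) :=
  ((Matrix.detMonoidHom (n := Fin n) (R := K)).comp (Submonoid.subtype _)).ker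

/-- `PSU_n(q)`, as a subgroup of `PGU_n(q)` -/
def PSU (n : ℕ) : Subgroup (PGU K n) := (SU K n).map (QuotientGroup.mk' _)

/-- `PSU_n(q)`, as a subgroup of `PΓU_n(q)` -/
def PSU' (n : ℕ) : Subgroup (PGamU K n) := (PSU K n).map SemidirectProduct.inl

end

end Vale.Agent.P240.R2.AS
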