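import Vale.Agent.P240.R2.AS.Defs
import Vale.Agent.P240.R2.H275.Defs

/-!
Exact statements of the modules (owners in the names of the sections).
-/

set_option autoImplicit false

namespace Vale.Agent.P240.R2.AS

open Finset Matrix Vale.Agent.P240 Vale.Agent.P240.K
open Vale.Agent.P240.R2.H986 (ev)
open Vale.Agent.P240.R2.H275 (QuillenDim)
open scoped Classical

universe u v

/-- M3 (owner 938): a nonzero cycle on the chains with `n - 1` groups -/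
def StmtM3 : Prop :=
  ∀ (p n : ℕ) [Fact p.Prime] (G : Type u) [Group G] [Finite G] (L : Type v) [Fintype L]
    (F : Finset (List L)) (e : List L → G), 1 ≤ n → Comb p n F e →
    ∀ z ∈ SOL F, ∀ f ∈ F, ev z f [] [] ≠ 0 →
    ∃ c : List (Ap p G) →₀ ℚ, IsChain (n - 1) c ∧ bd c = 0 ∧ c ≠ 0

/-- M4 (owners 727, 296): the `p`-rank of `PGU_n(q)` is at most `n - 1` -/
def StmtM4 : Prop :=
  ∀ (K : Type u) [Field K] [Fintype K] [StarRing K] (q : ℕ), 2 ≤ q → Nat.card K = q ^ 2 →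
    (∀ x : K, star x = x ^ q) → ∀ (p : ℕ) [Fact p.Prime], p ∣ q + 1 → ∀ n : ℕ, 1 ≤ n →
    (p ≠ 2 ∨ (n ≠ 2 ∧ n ≠ 4)) → ∀ E : Subgroup (PGU K n), (∀ x ∈ E, ∀ y ∈ E, x * y = y * x) →
    (∀ x ∈ E, x ^ p = 1) → Nat.card E ≤ p ^ (n - 1)

/-- M4c (owner 275): the elements of `PGU_n(q)` -/
def StmtM4c : Prop :=
  ∀ (K : Type u) [Field K] [Fintype K] [StarRing K] (q : ℕ), 3 ≤ q → Nat.card K = q ^ 2 →
    (∀ x : K, star x = x ^ q) → ∀ (p : ℕ) [Fact p.Prime] (ζ : K), ζ ^ p = 1 → ζ ≠ 1 →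
    ζ * star ζ = 1 → ∀ n : ℕ, 1 ≤ n → Comb p n (Fr K n) (eW ζ)

/-- M6 (owner 638): every subgroup `H` of `PGU_n(q)` that contains all the elements `e W` has the
Quillen dimension property at `p`, over any field `𝕜` -/
def StmtM6 : Prop :=
  ∀ (K : Type u) [Field K] [Fintype K] [StarRing K] (q : ℕ), 3 ≤ q → Nat.card K = q ^ 2 →
    (∀ x : K, star x = x ^ q) → ∀ (p : ℕ) [Fact p.Prime], p ∣ q + 1 → ∀ n : ℕ, 1 ≤ n →
    (p ≠ 2 ∨ (n ≠ 2 ∧ n ≠ 4)) → ∀ ζ : K, ζ ^ p = 1 → ζ ≠ 1 → ∀ H : Subgroup (PGU K n),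
    (∀ w : List (Ln K n), Orth w → eW ζ w ∈ H) → ∀ (𝕜 : Type v) [Field 𝕜], QuillenDim 𝕜 p H

end Vale.Agent.P240.R2.AS
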