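import Vale.Agent.P240.R2.AS.Defs2
import Vale.Agent.P240.R2.AS.Stmts

/-!
Exact statements, stage 2: all `p`-extensions of `PSU_n(q)` for odd `p` dividing `q + 1`.
-/

set_option autoImplicit false

namespace Vale.Agent.P240.R2.AS

open Finset Matrix Vale.Agent.P240 Vale.Agent.P240.K
open Vale.Agent.P240.R2.H986 (ev)
open Vale.Agent.P240.R2.H275 (QuillenDim)
open scoped Classical

universe u v

noncomputable section

/-- A1 (owner 523) -/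
def StmtA1 : Prop :=
  ∀ (K : Type u) [Field K] [Fintype K] [StarRing K] (q : ℕ), 3 ≤ q → Nat.card K = q ^ 2 →
    (∀ x : K, star x = x ^ q) → ∀ (p : ℕ) [Fact p.Prime], p ∣ q + 1 → ∀ ζ : K, ζ ^ p = 1 → ζ ≠ 1 →
    ∀ n : ℕ, 1 ≤ n → ∀ H : Subgroup (PGU K n), PSU K n ≤ H → (PSU K n).relIndex H ∣ p →
    (¬ p ^ (padicValNat p (q + 1)) ∣ n ∨ H ≠ PSU K n) →
    ∀ w : List (Ln K n), Orth w → eW ζ w ∈ H

/-- the class of the unitary matrix with blocks `1 + (ζ - 1) P` and `ζ ^ (- |w|)`, where `P` is the sum of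
the projections of the word `w` (for `p ∣ n`: the elements of `PSU_n(q)` used for a frame of
`K ^ (n-1)`) -/
def eW' {K : Type u} [Field K] [StarRing K] {m : ℕ} (ζ : K) (w : List (Ln K m)) : PGU K (m + 1) :=
  if h : (Matrix.reindex finSumFinEquiv finSumFinEquiv
      (Matrix.fromBlocks (1 + (ζ - 1) • sm w) 0 0 (Matrix.of fun _ _ : Fin 1 => (ζ⁻¹) ^ w.length))) ∈
      Matrix.unitaryGroup (Fin (m + 1)) K
  then QuotientGroup.mk ⟨_, h⟩ else 1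

/-- A2 (owner 402) -/
def StmtA2 : Prop :=
  ∀ (K : Type u) [Field K] [Fintype K] [StarRing K] (q : ℕ), 3 ≤ q → Nat.card K = q ^ 2 →
    (∀ x : K, star x = x ^ q) → ∀ (p : ℕ) [Fact p.Prime] (ζ : K), ζ ^ p = 1 → ζ ≠ 1 →
    ζ * star ζ = 1 → ∀ m : ℕ, 1 ≤ m → p ∣ m + 1 →
    Comb p m (Fr K m) (eW' ζ) ∧ ∀ w : List (Ln K m), Orth w → eW' ζ w ∈ PSU K (m + 1)

/-- A3 (owner 727) -/
def StmtA3 : Prop :=
  ∀ (K : Type u) [Field K] [Fintype K] [StarRing K] (q : ℕ), 3 ≤ q → Nat.card K = q ^ 2 →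
    (∀ x : K, star x = x ^ q) → ∀ (p : ℕ) [Fact p.Prime], p ∣ q + 1 → p ≠ 2 → ∀ n : ℕ,
    p ^ (padicValNat p (q + 1)) ∣ n → 1 ≤ n → ¬ (p = 3 ∧ n = 3) → ∀ E : Subgroup (PGU K n),
    E ≤ PSU K n → (∀ x ∈ E, ∀ y ∈ E, x * y = y * x) → (∀ x ∈ E, x ^ p = 1) →
    Nat.card E ≤ p ^ (n - 2)

/-- A4 (owner 221) -/
def StmtA4 : Prop :=
  ∀ (K : Type u) [Field K] [Fintype K] [StarRing K] (q : ℕ), 3 ≤ q → Nat.card K = q ^ 2 →
    (∀ x : K, star x = x ^ q) → 3 ∣ q + 1 → ¬ 9 ∣ q + 1 → QuillenDim ℚ 3 (PSU K 3)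

/-- A5 (owner 613): all elements of order `p` in the coset of a field automorphism of order `p` are
conjugate, `p` odd -/
def StmtA5 : Prop :=
  ∀ (K : Type u) [Field K] [Fintype K] [StarRing K] (q : ℕ), 3 ≤ q → Nat.card K = q ^ 2 →
    (∀ x : K, star x = x ^ q) → ∀ (p : ℕ) [Fact p.Prime], p ≠ 2 → p ∣ q + 1 → ∀ n : ℕ, 1 ≤ n →
    ∀ x : PGamU K n, x ^ p = 1 → x.right ≠ 1 → ∃ h : PGU K n,
    x = SemidirectProduct.inl h * SemidirectProduct.inr x.right * (SemidirectProduct.inl h)⁻¹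

/-- A7 (owners 687, 945): chains of `n` groups in `⟨N, τ⟩`, for the normal subgroup `N` of `PGU_n(q)`
containing `PSU_n(q)` and all `e W`, and a field automorphism `τ` of order `p`. -/
def StmtA7 : Prop :=
  ∀ (K : Type u) [Field K] [Fintype K] [StarRing K] (q : ℕ), 3 ≤ q → Nat.card K = q ^ 2 →
    (∀ x : K, star x = x ^ q) → ∀ (p : ℕ) [Fact p.Prime], p ≠ 2 → p ∣ q + 1 → ¬ (p = 3 ∧ q = 8) →
    ∀ n : ℕ, 2 ≤ n → ∀ ζ : K, ζ ^ p = 1 → ζ ≠ 1 → ∀ σ : SA K, orderOf σ = p →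
    ∀ H : Subgroup (PGamU K n), PSU' K n ≤ H → SemidirectProduct.inr σ ∈ H →
    (∀ w : List (Ln K n), Orth w → SemidirectProduct.inl (eW ζ w) ∈ H) →
    ∃ c : List (Ap p H) →₀ ℚ, IsChain n c ∧ bd c = 0 ∧ c ≠ 0

/-- A8 (owner 38): chains of `n - 1` groups in `⟨PSU_n(q), τ⟩`, `p ∣ n` -/
def StmtA8 : Prop :=
  ∀ (K : Type u) [Field K] [Fintype K] [StarRing K] (q : ℕ), 3 ≤ q → Nat.card K = q ^ 2 →
    (∀ x : K, star x = x ^ q) → ∀ (p : ℕ) [Fact p.Prime], p ≠ 2 → p ∣ q + 1 → ¬ (p = 3 ∧ q = 8) →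
    ∀ n : ℕ, 2 ≤ n → p ∣ n → ∀ σ : SA K, orderOf σ = p →
    ∀ H : Subgroup (PGamU K n), PSU' K n ≤ H → SemidirectProduct.inr σ ∈ H →
    ∃ c : List (Ap p H) →₀ ℚ, IsChain (n - 1) c ∧ bd c = 0 ∧ c ≠ 0

/-- THE FINAL THEOREM, odd `p`: all groups `PSU_n(q) E`, `E` an elementary abelian `p`-subgroup of
`PΓU_n(q)` (owner of the assembly: helper63) -/
def StmtAS : Prop :=
  ∀ (K : Type u) [Field K] [Fintype K] [StarRing K] (q : ℕ), 3 ≤ q → Nat.card K = q ^ 2 →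
    (∀ x : K, star x = x ^ q) → ∀ (p : ℕ) [Fact p.Prime], p ≠ 2 → p ∣ q + 1 → ∀ n : ℕ, 2 ≤ n →
    ∀ E : Subgroup (PGamU K n), (∀ x ∈ E, ∀ y ∈ E, x * y = y * x) → (∀ x ∈ E, x ^ p = 1) →
    ((p = 3 ∧ q = 8) → ∀ x ∈ E, x.right = 1) →
    ∀ (𝕜 : Type v) [Field 𝕜], QuillenDim 𝕜 p ↥(PSU' K n ⊔ E)

end

end Vale.Agent.P240.R2.AS
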