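import Vale.Agent.P240.R2.AS.Stmts2

/-!
Small lemmas for the assembly of StmtAS.
-/

set_option autoImplicit false

namespace Vale.Agent.P240.R2.AS

open Finset Matrix Vale.Agent.P240 Vale.Agent.P240.K
open Vale.Agent.P240.R2.H986 (ev)
open Vale.Agent.P240.R2.H275 (QuillenDim)
open scoped Classical

universe u v

/-- REL (owner 195): `PGU/PSU` is cyclic -/
def StmtREL : Prop :=
  ∀ (K : Type u) [Field K] [Fintype K] [StarRing K] (p : ℕ) [Fact p.Prime] (n : ℕ)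
    (E : Subgroup (PGU K n)), (∀ x ∈ E, ∀ y ∈ E, x * y = y * x) → (∀ x ∈ E, x ^ p = 1) →
    (PSU K n).relIndex (PSU K n ⊔ E) ∣ p

/-- CYC (owner 195): the automorphism group of a finite field is cyclic -/
def StmtCYC : Prop :=
  ∀ (K : Type u) [Field K] [Fintype K] [StarRing K] (p : ℕ) [Fact p.Prime] (n : ℕ)
    (E : Subgroup (PGamU K n)), (∀ x ∈ E, ∀ y ∈ E, x * y = y * x) → (∀ x ∈ E, x ^ p = 1) →
    Nat.card E ≤ p * Nat.card ↥(E ⊓ (SemidirectProduct.rightHom : PGamU K n →* SA K).ker)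

/-- LTE (owner 334): a field automorphism of odd order `p ∣ q + 1` gives `p ^ 2 ∣ q + 1` -/
def StmtLTE : Prop :=
  ∀ (K : Type u) [Field K] [Fintype K] [StarRing K] (q : ℕ), 3 ≤ q → Nat.card K = q ^ 2 →
    (∀ x : K, star x = x ^ q) → ∀ (p : ℕ) [Fact p.Prime], p ≠ 2 → p ∣ q + 1 →
    ∀ σ : SA K, orderOf σ = p → p ^ 2 ∣ q + 1

/-- SUB (owner 638): M3 for the groups generated inside a subgroup `H` (used for `PSU`, `H`) -/
def StmtSUB : Prop :=
  ∀ (p n : ℕ) [Fact p.Prime] (G : Type u) [Group G] [Finite G] (L : Type v) [Fintype L]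
    (F : Finset (List L)) (e : List L → G), 1 ≤ n → Comb p n F e → ∀ H : Subgroup G,
    (∀ u v : List L, u ++ v ∈ F → e u ∈ H) →
    ∀ z ∈ SOL F, ∀ f ∈ F, ev z f [] [] ≠ 0 →
    ∃ c : List (Ap p H) →₀ ℚ, IsChain (n - 1) c ∧ bd c = 0 ∧ c ≠ 0

end Vale.Agent.P240.R2.AS
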