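import Vale.Agent.P240.R2.AS.Stmts3

/-!
All groups between `PSU_n(q)` and `PGU_n(q)`, all primes `p ∣ q + 1`.
-/

set_option autoImplicit false

namespace Vale.Agent.P240.R2.AS

open Finset Matrix Vale.Agent.P240 Vale.Agent.P240.K
open Vale.Agent.P240.R2.H986 (ev)
open Vale.Agent.P240.R2.H275 (QuillenDim)
open scoped Classical

universe u v

/-- A1g (owners 523, 195) -/
def StmtA1g : Prop :=
  ∀ (K : Type u) [Field K] [Fintype K] [StarRing K] (q : ℕ), 3 ≤ q → Nat.card K = q ^ 2 →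
    (∀ x : K, star x = x ^ q) → ∀ (p : ℕ) [Fact p.Prime], p ∣ q + 1 → ∀ ζ : K, ζ ^ p = 1 → ζ ≠ 1 →
    ∀ n : ℕ, 1 ≤ n → ∀ H : Subgroup (PGU K n), PSU K n ≤ H →
    (¬ p ^ (padicValNat p (q + 1)) ∣ n ∨ p ∣ (PSU K n).relIndex H) →
    ∀ w : List (Ln K n), Orth w → eW ζ w ∈ H

/-- A3g (owner 979): the `p`-rank of `PSU_n(q)`, `(q + 1)_p ∣ n`, any prime `p` -/
def StmtA3g : Prop :=
  ∀ (K : Type u) [Field K] [Fintype K] [StarRing K] (q : ℕ), 3 ≤ q → Nat.card K = q ^ 2 →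
    (∀ x : K, star x = x ^ q) → ∀ (p : ℕ) [Fact p.Prime], p ∣ q + 1 → ∀ n : ℕ,
    p ^ (padicValNat p (q + 1)) ∣ n → 1 ≤ n → ¬ (p = 3 ∧ n = 3) → ¬ (p = 2 ∧ n = 2) →
    ¬ (p = 2 ∧ n = 4) → ∀ E : Subgroup (PGU K n),
    E ≤ PSU K n → (∀ x ∈ E, ∀ y ∈ E, x * y = y * x) → (∀ x ∈ E, x ^ p = 1) →
    Nat.card E ≤ p ^ (n - 2)

/-- ALL (assembly: helper63) -/
def StmtALL : Prop :=
  ∀ (K : Type u) [Field K] [Fintype K] [StarRing K] (q : ℕ), 3 ≤ q → Nat.card K = q ^ 2 →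
    (∀ x : K, star x = x ^ q) → ∀ (p : ℕ) [Fact p.Prime], p ∣ q + 1 → ∀ n : ℕ, 2 ≤ n →
    (p ≠ 2 ∨ (n ≠ 2 ∧ n ≠ 4)) → ∀ H : Subgroup (PGU K n), PSU K n ≤ H →
    ∀ (𝕜 : Type v) [Field 𝕜], QuillenDim 𝕜 p H

end Vale.Agent.P240.R2.AS
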