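import Vale.Agent.P240.R2.AS.Stmts4

/-!
`p`-extensions of `PSU_n(q)`, `q` odd, `n ≥ 3`, as groups of automorphisms.
-/

set_option autoImplicit false

namespace Vale.Agent.P240.R2.AS

open Finset Matrix Vale.Agent.P240 Vale.Agent.P240.K
open Vale.Agent.P240.R2.H275 (QuillenDim)
open scoped Classical

universe u v

/-- TR: the automorphisms of `PSU_n(q)` -/
def StmtTR : Prop :=
  ∀ (K : Type u) [Field K] [Fintype K] [StarRing K] (q : ℕ), 3 < q → Nat.card K = q ^ 2 →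
    (∀ x : K, star x = x ^ q) → q % 2 = 1 → ∀ n : ℕ, 3 ≤ n → ∀ α : MulAut ↥(PSU K n),
    ∃ (s : SA K) (g : GU K n), ∀ y : ↥(PSU K n),
      ((α y : ↥(PSU K n)) : PGU K n) =
        (QuotientGroup.mk g : PGU K n) * act n s (y : PGU K n) * (QuotientGroup.mk g : PGU K n)⁻¹

/-- INJ (owner 651): the centralizer of `PSU_n(q)` in `PΓU_n(q)` is trivial, `n ≥ 3` -/
def StmtINJ : Prop :=
  ∀ (K : Type u) [Field K] [Fintype K] [StarRing K] (q : ℕ), 3 ≤ q → Nat.card K = q ^ 2 →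
    (∀ x : K, star x = x ^ q) → q % 2 = 1 → ∀ n : ℕ, 3 ≤ n → ∀ x : PGamU K n,
    (∀ y ∈ PSU' K n, x * y = y * x) → x = 1

/-- ASa (assembly: helper63): the groups `Inn(L) E`, `E` an elementary abelian `p`-subgroup of
`Aut(L)`, `L = PSU_n(q)`, `p` and `q` odd, `p ∣ q + 1`, `n ≥ 3` -/
def StmtASa : Prop :=
  ∀ (K : Type u) [Field K] [Fintype K] [StarRing K] (q : ℕ), 3 ≤ q → Nat.card K = q ^ 2 →
    (∀ x : K, star x = x ^ q) → q % 2 = 1 → ∀ (p : ℕ) [Fact p.Prime], p ≠ 2 → p ∣ q + 1 →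
    ∀ n : ℕ, 3 ≤ n → ∀ E : Subgroup (MulAut ↥(PSU K n)), (∀ x ∈ E, ∀ y ∈ E, x * y = y * x) →
    (∀ x ∈ E, x ^ p = 1) → ∀ (𝕜 : Type v) [Field 𝕜],
    QuillenDim 𝕜 p ↥((MulAut.conj (G := ↥(PSU K n))).range ⊔ E)

end Vale.Agent.P240.R2.AS
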