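import Vale.Agent.P240.R2.AS.Defs2
import Vale.Agent.P240.R2.H275.Defs
import Vale.Agent.P240.R2.H487.TwoD
import Vale.Agent.P240.H148.Defs
import Mathlib.GroupTheory.SpecificGroups.Alternating

/-!
Definitions used in the statement of `AUnitary`.
-/

set_option autoImplicit false

namespace Vale.Agent.P240.R2.AS

open Vale.Agent.P240.R2.H275 Vale.Agent.P240.R2.H487

/-- `K` is a field with `q ^ 2` elements, `q ≥ 3`, and `star x = x ^ q` for all `x`. -/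
def Herm (K : Type*) [Field K] [StarRing K] (q : ℕ) : Prop :=
  3 ≤ q ∧ Nat.card K = q ^ 2 ∧ ∀ x : K, star x = x ^ q

/-- `p ∣ q + 1`, and if `p = 2`, then `n` is odd and `q ≥ 7`. -/
def UCase (p q n : ℕ) : Prop := p ∣ q + 1 ∧ (p = 2 → n % 2 = 1 ∧ 7 ≤ q)

/-- `E` is an elementary abelian `p`-group or trivial. -/
def ExpP (p : ℕ) {G : Type*} [Group G] (E : Subgroup G) : Prop :=
  (∀ x ∈ E, ∀ y ∈ E, x * y = y * x) ∧ ∀ x ∈ E, x ^ p = 1

/-- Let `L` be a simple group. For every subgroup `E` of `Aut(L)` that is an elementary abelian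
`p`-group or trivial, the group `Inn(L) E` has the Quillen dimension property. -/
def ExtQD (𝕜 : Type*) [Field 𝕜] (p : ℕ) (L : Type*) [Group L] : Prop :=
  ∀ E : Subgroup (MulAut L), ExpP p E →
    QuillenDim 𝕜 p ↥((MulAut.conj (G := L)).range ⊔ E : Subgroup (MulAut L))

/-- `Γ` is isomorphic to `PGU_n(q)`, and `S` is the subgroup corresponding to `PSU_n(q)`. -/
def IsPGU (K : Type*) [Field K] [StarRing K] (n : ℕ) {Γ : Type*} [Group Γ] (S : Subgroup Γ) : Prop :=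
  ∃ e : PGU K n ≃* Γ, S = (PSU K n).map e.toMonoidHom

/-- `Γ` is isomorphic to `PΓU_n(q)`, and `S`, `B` are the subgroups corresponding to `PSU_n(q)`,
`PGU_n(q)`. -/
def IsPGamU (K : Type*) [Field K] [StarRing K] (n : ℕ) {Γ : Type*} [Group Γ] (S B : Subgroup Γ) :
    Prop :=
  ∃ e : PGamU K n ≃* Γ, S = (PSU' K n).map e.toMonoidHom ∧
    B = (SemidirectProduct.inl : PGU K n →* PGamU K n).range.map e.toMonoidHom

/-- `L` is isomorphic to `PSU_n(q)`, where `n ≥ 3`, `q ≥ 3` and `p ∣ q + 1`, except for `p = 3`,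
`q = 8`; if `p = 2`, then `n` is odd and `q ≥ 7`. -/
def PSUFac (p : ℕ) (L : Type*) [Group L] : Prop :=
  ∃ (n q : ℕ) (K : Type) (_ : Field K) (_ : Fintype K) (_ : StarRing K), Herm K q ∧ 3 ≤ n ∧
    UCase p q n ∧ ¬ (p = 3 ∧ q = 8) ∧ Nonempty (L ≃* ↥(PSU K n))

/-- `L` is an alternating group, or `PSU_n(q)` as in `PSUFac`, or `PSL_n(F)`; for `p = 2` the groups
`PSL_n(F)` are as in `LinTwo`. -/
def UFactor (𝕜 : Type*) [Field 𝕜] (p l : ℕ) (L : Type*) [Group L] : Prop :=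
  (∃ m : ℕ, 5 ≤ m ∧ Nonempty (L ≃* alternatingGroup (Fin m))) ∨ PSUFac p L ∨
    (p ≠ 2 ∧ ∃ r : ℕ, r.Prime ∧ H148.IsPSL r L) ∨ (p = 2 ∧ LinTwo 𝕜 l L)

end Vale.Agent.P240.R2.AS
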